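import Vale.Agent.P025.R2.H746.Pair
import Vale.Agent.P025.R2.H458.Hred
import Vale.Agent.P025.R2.H992.Count

/-!
# P025 G-STAB: the final statements (blueprint (7.1))

`C` algebraically closed, spherically complete, with surjective norm; `K` a function field of one
variable over `C`, `T ∈ K` nonconstant.  The absolute values of `K` over the Gauss norm of `T` form
a finite nonempty set, the residue fields are function fields of one variable over `kC C`, the sum
of the residue degrees is the degree, `∑ (gen κ_w - 1) ≤ gen K - 1`; in a finite extension `W / K`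
the sum of the local residue degrees is `[W : K]`.
-/

set_option linter.unusedSectionVars false
set_option linter.style.haveILetI false

open Polynomial IntermediateField

namespace P025H746

open P025H373 Vale.Agent.P019P P025H458

noncomputable section

variable {C K W : Type*} [NontriviallyNormedField C] [IsUltrametricDist C] [IsAlgClosed C]
  [Field K] [Algebra C K] [Field W] [Algebra C W] [Algebra K W] [IsScalarTower C K W] {T : K}

instance instCFFkap [FiniteDimensional C⟮T⟯ K] (w : {w : NV C K // w.OverG T}) :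
    CFF (kC C) (kap w.1) := w.2.cff

theorem nonempty_overG [FiniteDimensional C⟮T⟯ K] (hT : Transcendental C T) :
    Nonempty {w : NV C K // w.OverG T} := by
  obtain ⟨c, hc⟩ := NormedField.exists_one_lt_norm C
  obtain ⟨w, hw⟩ := exists_over hT ⟨c, hc⟩
  exact ⟨⟨w, hw⟩⟩

/-- the value group of `w` is the one of `C` -/
theorem exists_norm_eq [FiniteDimensional C⟮T⟯ K] {w : NV C K} (hw : w.OverG T) (x : K) :
    ∃ c : C, ‖c‖ = w x := by
  obtain ⟨c, hc⟩ := exists_norm_eq_of_overG hw.transc w hw x
  exact ⟨c, hc.symm⟩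

/-- **G-STAB** -/
theorem stab (hC : Sph C) (hn : ∀ r : ℝ, 0 ≤ r → ∃ x : C, ‖x‖ = r) [CFF C K]
    [FiniteDimensional C⟮T⟯ K] (hT : Transcendental C T) :
    ∑ w : {w : NV C K // w.OverG T}, Module.finrank (kC C)⟮w.1.red T⟯ (kap w.1) =
        Module.finrank C⟮T⟯ K ∧
      ∑ w : {w : NV C K // w.OverG T}, ((gen (kC C) (kap w.1) : ℤ) - 1) ≤ (gen C K : ℤ) - 1 := by
  have hT' : ∀ a : C, T ≠ algebraMap C K a := fun a h => hT (h ▸ isAlgebraic_algebraMap a)
  haveI := nonempty_overG hT
  exact P025H992.count hC hn T hT' (fun w : {w : NV C K // w.OverG T} => w.1)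
    (fun w => w.2.apply_T.le) (fun w => w.2.red_ne)
    (sum_finrank_le (fun w : {w : NV C K // w.OverG T} => w.1) Subtype.val_injective
      (fun w => w.2))
    (fun n x hx hle w => hred hT' w.2 n hx (fun v hv => hle ⟨v, hv⟩))

/-- **`∑_w f_w = [K : C(T)]`** -/
theorem sum_finrank_eq (hC : Sph C) (hn : ∀ r : ℝ, 0 ≤ r → ∃ x : C, ‖x‖ = r)
    [FiniteDimensional C⟮T⟯ K] (hT : Transcendental C T) :
    ∑ w : {w : NV C K // w.OverG T}, Module.finrank (kC C)⟮w.1.red T⟯ (kap w.1) =
        Module.finrank C⟮T⟯ K := by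
  obtain ⟨w⟩ := nonempty_overG hT
  haveI : CFF C K := w.2.cff'
  exact (stab hC hn hT).1

/-- **`∑_{v | w} [κ_v : κ_w] = [W : K]`** -/
theorem sum_resdeg_eq (hC : Sph C) (hn : ∀ r : ℝ, 0 ≤ r → ∃ x : C, ‖x‖ = r)
    [FiniteDimensional C⟮T⟯ K] [FiniteDimensional K W] (w : NV C K) (hw : w.OverG T)
    [Fintype {v : NV C W // NVExt w v}] :
    ∑ v : {v : NV C W // NVExt w v}, Module.finrank (kap w) (kap v.1) = Module.finrank K W := by
  haveI : FiniteDimensional C⟮algebraMap K W T⟯ W := finite_adjoin_map
  have hT : Transcendental C T := hw.transc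
  have hT' : Transcendental C (algebraMap K W T) := by
    rw [transcendental_algebraMap_iff (FaithfulSMul.algebraMap_injective K W)]
    exact hT
  exact sum_resdeg_eq_of (fun w hw x => exists_norm_eq hw x) (sum_finrank_eq hC hn hT)
    (sum_finrank_eq hC hn hT') w hw

/-- existence of extensions -/
theorem exists_nvExt (hC : Sph C) (hn : ∀ r : ℝ, 0 ≤ r → ∃ x : C, ‖x‖ = r)
    [FiniteDimensional C⟮T⟯ K] [FiniteDimensional K W] (w : NV C K) (hw : w.OverG T) :
    ∃ v : NV C W, NVExt w v := by
  haveI : Finite {v : NV C W // NVExt w v} := finite_ext w fun x => exists_norm_eq hw x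
  letI : Fintype {v : NV C W // NVExt w v} := Fintype.ofFinite _
  by_contra hcon
  push Not at hcon
  haveI : IsEmpty {v : NV C W // NVExt w v} := ⟨fun v => hcon v.1 v.2⟩
  have h1 := sum_resdeg_eq (W := W) hC hn w hw
  rw [Finset.univ_eq_empty, Finset.sum_empty] at h1
  exact Module.finrank_pos.ne h1

/-- `W / K` Galois of prime degree: either the extension of `w` is unique, of residue degree
`[W : K]`, or `K` is dense for each extension of `w` -/
theorem inert_or_dense' (hC : Sph C) (hn : ∀ r : ℝ, 0 ≤ r → ∃ x : C, ‖x‖ = r)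
    [FiniteDimensional C⟮T⟯ K] [FiniteDimensional K W] [IsGalois K W]
    (hp : (Module.finrank K W).Prime) (w : NV C K) (hw : w.OverG T) (v : NV C W) [NVExt w v] :
    ((∀ v' : NV C W, NVExt w v' → v' = v) ∧
      Module.finrank (kap w) (kap v) = Module.finrank K W) ∨
      (∀ (x : W) (ε : ℝ), 0 < ε → ∃ y : K, v (x - algebraMap K W y) < ε) :=
  inert_or_dense hp w v (sum_resdeg_eq hC hn w hw)

end

end P025H746
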