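import Vale.Agent.P025.R2.H373.Defs

/-!
# P025 G-STAB (helper746): absolute values on function fields, residue fields

`NV C K` : ultrametric absolute values on `K` extending the norm of `C`.
`w.ring`, `kap w` : valuation ring and residue field; `kC C` : residue field of `C`;
`w.red x` : residue class of `x` (`0` if `w x > 1`);
`w.OverG T` : `w` induces the Gauss norm on `C[T]`;
`w.OverGauss` : the same for `K` given as an algebra over `RatFunc C`.
-/

open Polynomial

set_option linter.unusedSectionVars false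
set_option linter.style.haveILetI false

namespace P025H746

open P025H373

noncomputable section

/-! ## The residue field of `C` -/

section base

variable (C : Type*) [NormedField C] [IsUltrametricDist C]

/-- valuation ring of `C` -/
def OC : ValuationSubring C where
  carrier := {x | ‖x‖ ≤ 1}
  mul_mem' := by
    intro a b ha hb
    simp only [Set.mem_ofPred_eq, norm_mul] at *
    exact mul_le_one₀ ha (norm_nonneg _) hb
  one_mem' := by simp
  add_mem' := by
    intro a b ha hb
    exact (IsUltrametricDist.norm_add_le_max a b).trans (max_le ha hb)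
  zero_mem' := by simp
  neg_mem' := by
    intro a ha
    simpa using ha
  mem_or_inv_mem' := by
    intro a
    rcases le_total ‖a‖ 1 with h | h
    · exact Or.inl h
    · right
      simp only [Set.mem_ofPred_eq, norm_inv]
      exact inv_le_one_of_one_le₀ h

variable {C}

theorem mem_OC {x : C} : x ∈ OC C ↔ ‖x‖ ≤ 1 := Iff.rfl

variable (C)

/-- residue field of `C` -/
abbrev kC : Type _ := IsLocalRing.ResidueField (OC C)

variable {C}

open Classical in
/-- residue class of an element of `C` (`0` if the norm is `> 1`) -/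
def cred (x : C) : kC C := if h : ‖x‖ ≤ 1 then IsLocalRing.residue (OC C) ⟨x, h⟩ else 0

end base

/-! ## Absolute values -/

/-- ultrametric absolute values on `K` extending the norm of `C` -/
@[ext] structure NV (C K : Type*) [NormedField C] [Field K] [Algebra C K] where
  /-- the absolute value -/
  av : AbsoluteValue K ℝ
  na : IsNonarchimedean av
  ext' : ∀ c : C, av (algebraMap C K c) = ‖c‖

section NV

variable {C K : Type*} [NormedField C] [Field K] [Algebra C K]

instance : CoeFun (NV C K) fun _ => K → ℝ := ⟨fun w => w.av⟩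

/-- the valuation ring of `w` -/
def NV.ring (w : NV C K) : ValuationSubring K where
  carrier := {x | w x ≤ 1}
  mul_mem' := by
    intro a b ha hb
    simp only [Set.mem_ofPred_eq, map_mul] at *
    exact mul_le_one₀ ha (w.av.nonneg _) hb
  one_mem' := by simp
  add_mem' := by
    intro a b ha hb
    exact (w.na a b).trans (max_le ha hb)
  zero_mem' := by simp
  neg_mem' := by
    intro a ha
    simpa using ha
  mem_or_inv_mem' := by
    intro a
    rcases le_total (w a) 1 with h | h
    · exact Or.inl h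
    · right
      simp only [Set.mem_ofPred_eq, map_inv₀]
      exact inv_le_one_of_one_le₀ h

theorem NV.mem_ring {w : NV C K} {x : K} : x ∈ w.ring ↔ w x ≤ 1 := Iff.rfl

/-- the residue field of `w` -/
abbrev kap (w : NV C K) : Type _ := IsLocalRing.ResidueField w.ring

open Classical in
/-- residue class (`0` if `w x > 1`) -/
def NV.red (w : NV C K) (x : K) : kap w :=
  if h : w x ≤ 1 then IsLocalRing.residue w.ring ⟨x, h⟩ else 0

/-- `w` induces the Gauss norm on `C[T]` -/
def NV.OverG [IsUltrametricDist C] (w : NV C K) (T : K) : Prop :=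
  ∀ P : C[X], w (aeval T P) = gp P

/-- `w` induces the Gauss norm on `C(t)` -/
def NV.OverGauss [IsUltrametricDist C] [Algebra (RatFunc C) K] (w : NV C K) : Prop :=
  ∀ f : RatFunc C, w (algebraMap (RatFunc C) K f) = gauss C f

variable [IsUltrametricDist C]

/-- `OC C → w.ring` -/
def NV.incl (w : NV C K) : OC C →+* w.ring where
  toFun x := ⟨algebraMap C K x, by
    rw [NV.mem_ring, w.ext']
    exact x.2⟩
  map_one' := by ext; simp
  map_mul' _ _ := by ext; simp
  map_zero' := by ext; simp
  map_add' _ _ := by ext; simp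

instance (w : NV C K) : IsLocalHom w.incl := by
  refine ⟨fun a ha => ?_⟩
  have h1 : (a : C) ≠ 0 := by
    intro h
    have : w.incl a = 0 := by
      ext
      change algebraMap C K a = 0
      rw [h, map_zero]
    rw [this] at ha
    exact not_isUnit_zero ha
  obtain ⟨b, hb⟩ := isUnit_iff_exists_inv.1 ha
  have hb' : algebraMap C K a * (b : K) = 1 := congrArg Subtype.val hb
  have h2 : (1 : ℝ) = ‖(a : C)‖ * w b := by
    rw [← w.ext', ← map_mul, hb', map_one]
  have h3 : ‖(a : C)‖ ≤ 1 := a.2
  have h4 : w b ≤ 1 := b.2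
  have h5 : ‖(a : C)‖ = 1 := by
    by_contra h
    have : ‖(a : C)‖ < 1 := lt_of_le_of_ne h3 h
    have h6 : ‖(a : C)‖ * w b < 1 :=
      lt_of_le_of_lt (mul_le_of_le_one_right (norm_nonneg _) h4) this
    linarith
  refine isUnit_iff_exists_inv.2 ⟨⟨(a : C)⁻¹, ?_⟩, ?_⟩
  · rw [mem_OC, norm_inv, h5, inv_one]
  · ext
    exact mul_inv_cancel₀ h1

instance (w : NV C K) : Algebra (kC C) (kap w) := (IsLocalRing.ResidueField.map w.incl).toAlgebra

theorem isUnit_ring_iff {w : NV C K} {x : w.ring} : IsUnit x ↔ w x = 1 := by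
  constructor
  · intro h
    obtain ⟨y, hy⟩ := isUnit_iff_exists_inv.1 h
    have hy' : (x : K) * (y : K) = 1 := congrArg Subtype.val hy
    have h2 : w x * w y = 1 := by rw [← map_mul, hy', map_one]
    have h3 : w x ≤ 1 := x.2
    have h4 : w y ≤ 1 := y.2
    refine le_antisymm h3 ?_
    rw [← h2]
    exact mul_le_of_le_one_right (w.av.nonneg _) h4
  · intro h
    have h0 : (x : K) ≠ 0 := by
      intro h0
      rw [h0, map_zero] at h
      exact zero_ne_one h
    refine isUnit_iff_exists_inv.2 ⟨⟨(x : K)⁻¹, ?_⟩, ?_⟩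
    · rw [NV.mem_ring, map_inv₀, h, inv_one]
    · ext
      exact mul_inv_cancel₀ h0

theorem isUnit_OC_iff {x : OC C} : IsUnit x ↔ ‖(x : C)‖ = 1 := by
  constructor
  · intro h
    obtain ⟨y, hy⟩ := isUnit_iff_exists_inv.1 h
    have hy' : (x : C) * (y : C) = 1 := congrArg Subtype.val hy
    have h2 : ‖(x : C)‖ * ‖(y : C)‖ = 1 := by rw [← norm_mul, hy', norm_one]
    have h3 : ‖(x : C)‖ ≤ 1 := x.2
    have h4 : ‖(y : C)‖ ≤ 1 := y.2
    refine le_antisymm h3 ?_
    rw [← h2]
    exact mul_le_of_le_one_right (norm_nonneg _) h4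
  · intro h
    have h0 : (x : C) ≠ 0 := by
      intro h0
      rw [h0, norm_zero] at h
      exact zero_ne_one h
    refine isUnit_iff_exists_inv.2 ⟨⟨(x : C)⁻¹, ?_⟩, ?_⟩
    · rw [mem_OC, norm_inv, h, inv_one]
    · ext
      exact mul_inv_cancel₀ h0

/-! ### API of `cred` -/

theorem cred_of {x : C} (h : ‖x‖ ≤ 1) : cred x = IsLocalRing.residue (OC C) ⟨x, h⟩ := dif_pos h

theorem cred_surj (a : kC C) : ∃ x : C, ‖x‖ ≤ 1 ∧ cred x = a := by
  obtain ⟨x, hx⟩ := IsLocalRing.residue_surjective a
  exact ⟨x, x.2, by rw [cred_of x.2]; exact hx⟩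

@[simp] theorem cred_zero : cred (0 : C) = 0 := by
  rw [cred_of (by simp)]
  exact map_zero _

@[simp] theorem cred_one : cred (1 : C) = 1 := by
  rw [cred_of (by simp)]
  exact map_one _

theorem cred_eq_zero {x : C} (h : ‖x‖ ≤ 1) : cred x = 0 ↔ ‖x‖ < 1 := by
  rw [cred_of h, IsLocalRing.residue_eq_zero_iff, IsLocalRing.mem_maximalIdeal, mem_nonunits_iff,
    isUnit_OC_iff]
  exact ⟨fun h' => lt_of_le_of_ne h h', fun h' => h'.ne⟩

theorem cred_add {x y : C} (hx : ‖x‖ ≤ 1) (hy : ‖y‖ ≤ 1) : cred (x + y) = cred x + cred y := by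
  rw [cred_of hx, cred_of hy,
    cred_of ((IsUltrametricDist.norm_add_le_max x y).trans (max_le hx hy)), ← map_add]
  rfl

theorem cred_mul {x y : C} (hx : ‖x‖ ≤ 1) (hy : ‖y‖ ≤ 1) : cred (x * y) = cred x * cred y := by
  rw [cred_of hx, cred_of hy,
    cred_of (by rw [norm_mul]; exact mul_le_one₀ hx (norm_nonneg _) hy), ← map_mul]
  rfl

/-! ### API of `red` -/

namespace NV

variable {w : NV C K}

theorem add_le {r : ℝ} {x y : K} (hx : w x ≤ r) (hy : w y ≤ r) : w (x + y) ≤ r :=
  (w.na x y).trans (max_le hx hy)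

theorem add_lt {r : ℝ} {x y : K} (hx : w x < r) (hy : w y < r) : w (x + y) < r :=
  (w.na x y).trans_lt (max_lt hx hy)

theorem map_neg' (x : K) : w (-x) = w x := w.av.map_neg x

theorem sub_le {r : ℝ} {x y : K} (hx : w x ≤ r) (hy : w y ≤ r) : w (x - y) ≤ r := by
  rw [sub_eq_add_neg]
  exact add_le hx (by rwa [map_neg'])

theorem sub_lt {r : ℝ} {x y : K} (hx : w x < r) (hy : w y < r) : w (x - y) < r := by
  rw [sub_eq_add_neg]
  exact add_lt hx (by rwa [map_neg'])

theorem sum_le {ι : Type*} {s : Finset ι} {f : ι → K} {r : ℝ} (hr : 0 ≤ r)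
    (h : ∀ i ∈ s, w (f i) ≤ r) : w (∑ i ∈ s, f i) ≤ r := by
  classical
  induction s using Finset.induction_on with
  | empty => simpa using hr
  | insert i s hi ih =>
    rw [Finset.sum_insert hi]
    exact add_le (h i (Finset.mem_insert_self _ _))
      (ih fun j hj => h j (Finset.mem_insert_of_mem hj))

theorem sum_lt {ι : Type*} {s : Finset ι} {f : ι → K} {r : ℝ} (hr : 0 < r)
    (h : ∀ i ∈ s, w (f i) < r) : w (∑ i ∈ s, f i) < r := by
  classical
  induction s using Finset.induction_on with
  | empty => simpa using hr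
  | insert i s hi ih =>
    rw [Finset.sum_insert hi]
    exact add_lt (h i (Finset.mem_insert_self _ _))
      (ih fun j hj => h j (Finset.mem_insert_of_mem hj))

theorem red_of {x : K} (h : w x ≤ 1) : w.red x = IsLocalRing.residue w.ring ⟨x, h⟩ := dif_pos h

theorem red_surj (a : kap w) : ∃ x : K, w x ≤ 1 ∧ w.red x = a := by
  obtain ⟨x, hx⟩ := IsLocalRing.residue_surjective a
  exact ⟨x, x.2, by rw [red_of x.2]; exact hx⟩

@[simp] theorem red_zero : w.red (0 : K) = 0 := by
  rw [red_of (by simp)]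
  exact map_zero _

@[simp] theorem red_one : w.red (1 : K) = 1 := by
  rw [red_of (by simp)]
  exact map_one _

theorem red_eq_zero {x : K} (h : w x ≤ 1) : w.red x = 0 ↔ w x < 1 := by
  rw [red_of h, IsLocalRing.residue_eq_zero_iff, IsLocalRing.mem_maximalIdeal, mem_nonunits_iff,
    isUnit_ring_iff]
  exact ⟨fun h' => lt_of_le_of_ne h h', fun h' => h'.ne⟩

theorem red_of_lt {x : K} (h : w x < 1) : w.red x = 0 := (red_eq_zero h.le).2 h

theorem red_add {x y : K} (hx : w x ≤ 1) (hy : w y ≤ 1) : w.red (x + y) = w.red x + w.red y := by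
  rw [red_of hx, red_of hy, red_of (add_le hx hy), ← map_add]
  rfl

theorem mul_le_one {x y : K} (hx : w x ≤ 1) (hy : w y ≤ 1) : w (x * y) ≤ 1 := by
  rw [map_mul]
  exact mul_le_one₀ hx (w.av.nonneg _) hy

theorem red_mul {x y : K} (hx : w x ≤ 1) (hy : w y ≤ 1) : w.red (x * y) = w.red x * w.red y := by
  rw [red_of hx, red_of hy, red_of (mul_le_one hx hy), ← map_mul]
  rfl

theorem red_neg {x : K} (hx : w x ≤ 1) : w.red (-x) = -w.red x := by
  rw [red_of hx, red_of (by rwa [map_neg']), ← map_neg]
  rfl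

theorem red_sub {x y : K} (hx : w x ≤ 1) (hy : w y ≤ 1) : w.red (x - y) = w.red x - w.red y := by
  rw [sub_eq_add_neg, red_add hx (by rwa [map_neg']), red_neg hy, sub_eq_add_neg]

theorem pow_le_one' {x : K} (hx : w x ≤ 1) (n : ℕ) : w (x ^ n) ≤ 1 := by
  rw [map_pow]
  exact pow_le_one₀ (w.av.nonneg _) hx

theorem red_pow {x : K} (hx : w x ≤ 1) (n : ℕ) : w.red (x ^ n) = w.red x ^ n := by
  induction n with
  | zero => simp
  | succ n ih => rw [pow_succ, pow_succ, red_mul (pow_le_one' hx n) hx, ih]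

theorem red_sum {ι : Type*} {s : Finset ι} {f : ι → K} (h : ∀ i ∈ s, w (f i) ≤ 1) :
    w.red (∑ i ∈ s, f i) = ∑ i ∈ s, w.red (f i) := by
  classical
  induction s using Finset.induction_on with
  | empty => simp
  | insert i s hi ih =>
    rw [Finset.sum_insert hi, Finset.sum_insert hi,
      red_add (h i (Finset.mem_insert_self _ _))
        (sum_le zero_le_one fun j hj => h j (Finset.mem_insert_of_mem hj)),
      ih fun j hj => h j (Finset.mem_insert_of_mem hj)]

theorem red_inv {x : K} (hx : w x = 1) : w.red x⁻¹ = (w.red x)⁻¹ := by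
  have h0 : x ≠ 0 := by
    intro h0
    rw [h0, map_zero] at hx
    exact zero_ne_one hx
  have h1 : w x⁻¹ ≤ 1 := by rw [map_inv₀, hx, inv_one]
  refine eq_inv_of_mul_eq_one_left ?_
  rw [← red_mul h1 hx.le, inv_mul_cancel₀ h0, red_one]

theorem red_algebraMap {c : C} (hc : ‖c‖ ≤ 1) :
    w.red (algebraMap C K c) = algebraMap (kC C) (kap w) (cred c) := by
  rw [cred_of hc, red_of (by rwa [w.ext'])]
  exact (IsLocalRing.ResidueField.map_residue w.incl ⟨c, hc⟩).symm

theorem red_ne_zero {x : K} (hx : w x = 1) : w.red x ≠ 0 := by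
  rw [Ne, red_eq_zero hx.le, hx]
  exact lt_irrefl _

end NV

/-! ### Reduction of polynomials -/

/-- coefficientwise reduction of a polynomial (of Gauss norm `≤ 1`) -/
def pred (P : C[X]) : (kC C)[X] := ∑ i ∈ P.support, monomial i (cred (P.coeff i))

@[simp] theorem coeff_pred (P : C[X]) (i : ℕ) : (pred P).coeff i = cred (P.coeff i) := by
  rw [pred, finsetSum_coeff]
  simp only [coeff_monomial]
  rw [Finset.sum_ite_eq' P.support i]
  split_ifs with h
  · rfl
  · rw [notMem_support_iff.1 h, cred_zero]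

theorem pred_surj (p : (kC C)[X]) : ∃ P : C[X], gp P ≤ 1 ∧ pred P = p := by
  classical
  choose f hf1 hf2 using fun i => cred_surj (p.coeff i)
  refine ⟨∑ i ∈ p.support, monomial i (f i), ?_, ?_⟩
  · rw [gp_le_iff]
    intro i
    rw [finsetSum_coeff]
    simp only [coeff_monomial]
    rw [Finset.sum_ite_eq' p.support i]
    split_ifs
    · exact hf1 i
    · simp
  · ext i
    rw [coeff_pred, finsetSum_coeff]
    simp only [coeff_monomial]
    rw [Finset.sum_ite_eq' p.support i]
    split_ifs with h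
    · exact hf2 i
    · rw [cred_zero, notMem_support_iff.1 h]

theorem pred_eq_zero {P : C[X]} (h : gp P ≤ 1) : pred P = 0 ↔ gp P < 1 := by
  rw [gp_lt_iff]
  constructor
  · intro h' i
    have := congrArg (fun q => q.coeff i) h'
    simp only [coeff_pred, coeff_zero] at this
    exact (cred_eq_zero (gp_le_iff.1 h i)).1 this
  · intro h'
    ext i
    rw [coeff_pred, coeff_zero]
    exact (cred_eq_zero (gp_le_iff.1 h i)).2 (h' i)

theorem NV.aeval_le {w : NV C K} {x : K} (hx : w x ≤ 1) {P : C[X]} (hP : gp P ≤ 1) :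
    w (aeval x P) ≤ 1 := by
  rw [aeval_eq_sum_range]
  refine NV.sum_le zero_le_one fun i _ => ?_
  rw [Algebra.smul_def]
  exact NV.mul_le_one (by rw [w.ext']; exact gp_le_iff.1 hP i) (NV.pow_le_one' hx i)

theorem NV.red_aeval {w : NV C K} {x : K} (hx : w x ≤ 1) {P : C[X]} (hP : gp P ≤ 1) :
    w.red (aeval x P) = aeval (w.red x) (pred P) := by
  have hc := gp_le_iff.1 hP
  have h1 : (pred P).natDegree < P.natDegree + 1 := by
    refine Nat.lt_succ_of_le (natDegree_le_iff_coeff_eq_zero.2 fun i hi => ?_)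
    rw [coeff_pred, coeff_eq_zero_of_natDegree_lt hi, cred_zero]
  rw [aeval_eq_sum_range, aeval_eq_sum_range' h1, NV.red_sum]
  · refine Finset.sum_congr rfl fun i _ => ?_
    rw [Algebra.smul_def, Algebra.smul_def,
      NV.red_mul (by rw [w.ext']; exact hc i) (NV.pow_le_one' hx i), NV.red_algebraMap (hc i),
      NV.red_pow hx, coeff_pred]
  · intro i _
    rw [Algebra.smul_def]
    exact NV.mul_le_one (by rw [w.ext']; exact hc i) (NV.pow_le_one' hx i)

end NV

end

end P025H746
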