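import Vale.Agent.P025.R2.H746.Defs
import Vale.Agent.P025.R2.H458.Sum
import Vale.Agent.P025.R2.H816.J03

/-!
# P025 G-STAB (helper746): the residue fields of the extensions of the Gauss norm

* `kC C` is algebraically closed,
* the residue of `T` is transcendental, `kap w` is a function field of one variable over `kC C`,
* the sum of the residue degrees is at most the degree.
-/

set_option linter.unusedSectionVars false
set_option linter.style.haveILetI false

open Polynomial IntermediateField

namespace P025H746

open P025H373 Vale.Agent.P019P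

noncomputable section

/-! ## `kC C` is algebraically closed -/

section

variable {C : Type*} [NormedField C] [IsUltrametricDist C] [IsAlgClosed C]

instance instIsAlgClosedKC : IsAlgClosed (kC C) := by
  refine IsAlgClosed.of_exists_root _ fun p hp hirr => ?_
  have h1 : p ∈ lifts (IsLocalRing.residue (OC C)) := by
    rw [lifts_iff_coeff_lifts]
    intro n
    exact IsLocalRing.residue_surjective _
  obtain ⟨q, hq, hqd, hqm⟩ := lifts_and_natDegree_eq_and_monic h1 hp
  have hd : (q.map (algebraMap (OC C) C)).degree ≠ 0 := by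
    rw [hqm.degree_map, Polynomial.degree_eq_natDegree hqm.ne_zero, hqd]
    have := hirr.natDegree_pos
    exact_mod_cast this.ne'
  obtain ⟨a, ha⟩ := IsAlgClosed.exists_root _ hd
  have hint : IsIntegral (OC C) a := ⟨q, hqm, by
    rw [IsRoot, eval_map] at ha
    exact ha⟩
  obtain ⟨b, hb⟩ := (IsIntegrallyClosed.isIntegral_iff (R := OC C) (K := C)).1 hint
  refine ⟨IsLocalRing.residue _ b, ?_⟩
  have h2 : q.eval b = 0 := by
    have h3 : algebraMap (OC C) C (q.eval b) = 0 := by
      rw [← eval₂_at_apply, hb, ← eval_map]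
      exact ha
    exact (FaithfulSMul.algebraMap_injective (OC C) C) (by rw [h3, map_zero])
  rw [← hq, eval_map, eval₂_hom, h2, map_zero]

end

/-! ## Comparison of `C(T)` and `RatFunc C` -/

section rat

variable {C K : Type*} [NormedField C] [IsUltrametricDist C] [Field K] [Algebra C K]

/-- `K` as an algebra over `C(t)` through `t ↦ T` -/
abbrev ratAlg (T : K) (h : Transcendental C T) : Algebra (RatFunc C) K :=
  ((algebraMap C⟮T⟯ K).comp
    (RatFunc.algEquivOfTranscendental T h : RatFunc C →+* C⟮T⟯)).toAlgebra

theorem ratAlg_tower (T : K) (h : Transcendental C T) :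
    letI := ratAlg T h
    IsScalarTower C (RatFunc C) K := by
  letI := ratAlg T h
  refine IsScalarTower.of_algebraMap_eq fun c => ?_
  change algebraMap C K c =
    algebraMap C⟮T⟯ K (RatFunc.algEquivOfTranscendental T h (algebraMap C (RatFunc C) c))
  rw [AlgEquiv.commutes]
  rfl

theorem ratAlg_X (T : K) (h : Transcendental C T) :
    letI := ratAlg T h
    algebraMap (RatFunc C) K RatFunc.X = T := by
  letI := ratAlg T h
  change algebraMap C⟮T⟯ K (RatFunc.algEquivOfTranscendental T h RatFunc.X) = T
  exact RatFunc.algEquivOfTranscendental_X T h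

variable [Algebra (RatFunc C) K] [IsScalarTower C (RatFunc C) K]

theorem algebraMap_poly (P : C[X]) : algebraMap (RatFunc C) K (algebraMap C[X] (RatFunc C) P) =
    aeval (algebraMap (RatFunc C) K RatFunc.X) P := by
  let φ : C[X] →ₐ[C] K := (IsScalarTower.toAlgHom C (RatFunc C) K).comp
    (IsScalarTower.toAlgHom C C[X] (RatFunc C))
  have h : φ = aeval (algebraMap (RatFunc C) K RatFunc.X) := by
    refine Polynomial.algHom_ext ?_
    rw [aeval_X]
    change algebraMap (RatFunc C) K (algebraMap C[X] (RatFunc C) X) = _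
    rw [RatFunc.algebraMap_X]
  exact DFunLike.congr_fun h P

theorem overGauss_iff (w : NV C K) :
    w.OverGauss ↔ w.OverG (algebraMap (RatFunc C) K RatFunc.X) := by
  constructor
  · intro h P
    have := gauss_div P (1 : C[X])
    rw [map_one, div_one, gp_one, div_one] at this
    rw [← algebraMap_poly, h, this]
  · intro h f
    rw [← f.num_div_denom, map_div₀, map_div₀, algebraMap_poly, algebraMap_poly, h, h,
      gauss_div]

theorem transc_X : Transcendental C (algebraMap (RatFunc C) K RatFunc.X) := by
  rw [transcendental_algebraMap_iff (FaithfulSMul.algebraMap_injective (RatFunc C) K)]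
  exact RatFunc.transcendental_X

theorem finrank_rat {T : K} (hT : T = algebraMap (RatFunc C) K RatFunc.X) :
    Module.finrank (RatFunc C) K = Module.finrank C⟮T⟯ K := by
  have h : Transcendental C T := hT ▸ transc_X
  refine Algebra.finrank_eq_of_equiv_equiv (RatFunc.algEquivOfTranscendental T h).toRingEquiv
    (RingEquiv.refl K) ?_
  refine RingHom.ext fun u => ?_
  change ((RatFunc.algEquivOfTranscendental T h u : C⟮T⟯) : K) = algebraMap (RatFunc C) K u
  rw [RatFunc.algEquivOfTranscendental_apply]
  conv_rhs => rw [← u.num_div_denom, map_div₀, algebraMap_poly, algebraMap_poly, ← hT]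

theorem finite_rat {T : K} (hT : T = algebraMap (RatFunc C) K RatFunc.X) :
    FiniteDimensional (RatFunc C) K ↔ FiniteDimensional C⟮T⟯ K := by
  constructor
  · intro h
    refine FiniteDimensional.of_finrank_pos ?_
    rw [← finrank_rat hT]
    exact Module.finrank_pos
  · intro h
    refine FiniteDimensional.of_finrank_pos ?_
    rw [finrank_rat hT]
    exact Module.finrank_pos

end rat

/-! ## Absolute values over the Gauss norm -/

section overG

variable {C K : Type*} [NontriviallyNormedField C] [IsUltrametricDist C] [Field K] [Algebra C K]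
  {T : K} {w : NV C K}

theorem NV.OverG.apply_T (h : w.OverG T) : w T = 1 := by
  have := h X
  rwa [aeval_X, gp_X] at this

theorem NV.OverG.transc (h : w.OverG T) : Transcendental C T := by
  rw [transcendental_iff]
  intro P hP
  have := h P
  rw [hP, map_zero] at this
  exact gp_eq_zero.1 this.symm

theorem NV.OverG.transc_red (h : w.OverG T) : Transcendental (kC C) (w.red T) := by
  rw [transcendental_iff]
  intro p hp
  obtain ⟨P, hP, rfl⟩ := pred_surj p
  rw [← NV.red_aeval h.apply_T.le hP, NV.red_eq_zero (NV.aeval_le h.apply_T.le hP), h P] at hp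
  exact (pred_eq_zero hP).2 hp

theorem NV.OverG.red_ne (h : w.OverG T) (a : kC C) :
    w.red T ≠ algebraMap (kC C) (kap w) a := by
  intro h1
  exact h.transc_red (h1 ▸ isAlgebraic_algebraMap a)

theorem sum_card_le [FiniteDimensional C⟮T⟯ K] {ι : Type*} [Fintype ι] (w : ι → NV C K)
    (hinj : Function.Injective w) (hw : ∀ i, (w i).OverG T) (n : ι → ℕ)
    (y : ∀ i, Fin (n i) → kap (w i))
    (hy : ∀ i, LinearIndependent (kC C)⟮(w i).red T⟯ (y i)) :
    ∑ i, n i ≤ Module.finrank C⟮T⟯ K := by
  classical
  rcases isEmpty_or_nonempty ι with hι | ⟨⟨i₀⟩⟩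
  · simp
  have htr : Transcendental C T := (hw i₀).transc
  letI : Algebra (RatFunc C) K := ratAlg T htr
  haveI : IsScalarTower C (RatFunc C) K := ratAlg_tower T htr
  have hX : T = algebraMap (RatFunc C) K RatFunc.X := (ratAlg_X T htr).symm
  haveI : FiniteDimensional (RatFunc C) K := (finite_rat hX).2 inferInstance
  rw [← finrank_rat hX]
  have hpol : ∀ P : C[X], P025H458.pol K P = aeval T P := by
    intro P
    rw [P025H458.pol, algebraMap_poly, ← hX]
  choose x hx1 hx2 using fun i (j : Fin (n i)) => NV.red_surj (y i j)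
  refine P025H458.sum_le_finrank (fun i => (w i).av) (fun i => (w i).na) (fun i => (w i).ext')
    (fun i j hij => hinj (NV.ext hij)) (fun i => by rw [← hX, (hw i).apply_T]) n x ?_
  intro i P hP hlt j
  have hP' : ∀ j, gp (P j) ≤ 1 := fun j => gp_le_iff.2 (hP j)
  have hT1 := (hw i).apply_T.le
  simp only [hpol] at hlt
  have hle : ∀ j, w i (aeval T (P j) * x i j) ≤ 1 := fun j =>
    NV.mul_le_one (NV.aeval_le hT1 (hP' j)) (hx1 i j)
  have h0 : ∑ j, aeval ((w i).red T) (pred (P j)) * y i j = 0 := by
    rw [← NV.red_of_lt hlt, NV.red_sum fun j _ => hle j]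
    refine Finset.sum_congr rfl fun j _ => ?_
    rw [NV.red_mul (NV.aeval_le hT1 (hP' j)) (hx1 i j), NV.red_aeval hT1 (hP' j), hx2]
  have h1 := Fintype.linearIndependent_iff.1 (hy i)
    (fun j => aeval (AdjoinSimple.gen (kC C) ((w i).red T)) (pred (P j))) (by
      rw [← h0]
      refine Finset.sum_congr rfl fun j _ => ?_
      rw [Algebra.smul_def]
      congr 1
      rw [← aeval_algebraMap_apply]
      rfl) j
  have h2 : aeval ((w i).red T) (pred (P j)) = 0 := by
    have := congrArg (algebraMap (kC C)⟮(w i).red T⟯ (kap (w i))) h1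
    rw [← aeval_algebraMap_apply, map_zero] at this
    exact this
  have h3 : pred (P j) = 0 := (transcendental_iff.1 (hw i).transc_red) _ h2
  exact gp_lt_iff.1 ((pred_eq_zero (hP' j)).1 h3)

/-- `kap w` is finite over `kC C (red T)` -/
theorem NV.OverG.finite [FiniteDimensional C⟮T⟯ K] (h : w.OverG T) :
    FiniteDimensional (kC C)⟮w.red T⟯ (kap w) := by
  have h1 : Module.rank (kC C)⟮w.red T⟯ (kap w) ≤ (Module.finrank C⟮T⟯ K : ℕ) := by
    refine rank_le fun s hs => ?_
    have := sum_card_le (T := T) (fun _ : Unit => w) (fun _ _ _ => rfl) (fun _ => h)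
      (fun _ => s.card) (fun _ => (fun i : s => (i : kap w)) ∘ s.equivFin.symm)
      (fun _ => hs.comp _ s.equivFin.symm.injective)
    simpa using this
  exact Module.rank_lt_aleph0_iff.1 (h1.trans_lt (Cardinal.natCast_lt_aleph0))

theorem NV.OverG.cff [IsAlgClosed C] [FiniteDimensional C⟮T⟯ K] (h : w.OverG T) :
    CFF (kC C) (kap w) :=
  ⟨inferInstance, w.red T, h.transc_red, h.finite⟩

theorem NV.OverG.cff' [IsAlgClosed C] [FiniteDimensional C⟮T⟯ K] (h : w.OverG T) : CFF C K :=
  ⟨inferInstance, T, h.transc, inferInstance⟩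

/-- **`∑ f_w ≤ [K : C(T)]`** -/
theorem sum_finrank_le [FiniteDimensional C⟮T⟯ K] {ι : Type*} [Fintype ι] (w : ι → NV C K)
    (hinj : Function.Injective w) (hw : ∀ i, (w i).OverG T) :
    ∑ i, Module.finrank (kC C)⟮(w i).red T⟯ (kap (w i)) ≤ Module.finrank C⟮T⟯ K := by
  have := fun i => (hw i).finite
  exact sum_card_le w hinj hw (fun i => Module.finrank (kC C)⟮(w i).red T⟯ (kap (w i)))
    (fun i => Module.finBasis _ _) (fun i => (Module.finBasis _ _).linearIndependent)

instance finite_overG [FiniteDimensional C⟮T⟯ K] : Finite {w : NV C K // w.OverG T} := by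
  by_contra hinf
  rw [not_finite_iff_infinite] at hinf
  let e : Fin (Module.finrank C⟮T⟯ K + 1) → {w : NV C K // w.OverG T} :=
    fun i => Infinite.natEmbedding _ (i : ℕ)
  have he : Function.Injective e := fun i j hij =>
    Fin.ext ((Infinite.natEmbedding _).injective hij)
  have h1 := sum_finrank_le (T := T) (fun i => (e i).1) (fun i j hij => he (Subtype.ext hij))
    (fun i => (e i).2)
  have h2 : ∑ i : Fin (Module.finrank C⟮T⟯ K + 1), 1 ≤
      ∑ i, Module.finrank (kC C)⟮((e i).1).red T⟯ (kap (e i).1) := by
    refine Finset.sum_le_sum fun i _ => ?_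
    have := (e i).2.finite
    exact Module.finrank_pos
  simp at h2
  omega

/-- the absolute values over the Gauss norm form a finite set -/
instance fintype_overG [FiniteDimensional C⟮T⟯ K] : Fintype {w : NV C K // w.OverG T} :=
  Fintype.ofFinite _

/-! ### The inverse of `T` -/

theorem gp_reverse (P : C[X]) : gp P.reverse = gp P := by
  apply le_antisymm
  · rw [gp_le_iff]
    intro i
    rw [coeff_reverse]
    exact norm_coeff_le _ _
  · rw [gp_le_iff]
    intro i
    have : P.coeff i = P.reverse.coeff (revAt P.natDegree i) := by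
      rw [coeff_reverse, revAt_invol]
    rw [this]
    exact norm_coeff_le _ _

theorem aeval_inv_eq {x : K} (hx : x ≠ 0) (P : C[X]) :
    aeval x⁻¹ P = aeval x P.reverse * (x⁻¹) ^ P.natDegree := by
  have hx' : x⁻¹ ≠ 0 := inv_ne_zero hx
  letI : Invertible (x⁻¹) := invertibleOfNonzero hx'
  have := eval₂_reverse_mul_pow (algebraMap C K) x⁻¹ P
  rw [invOf_eq_inv, inv_inv] at this
  exact this.symm

theorem NV.OverG.inv (h : w.OverG T) : w.OverG T⁻¹ := by
  have hT : w T = 1 := h.apply_T
  have h0 : T ≠ 0 := by
    intro h0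
    rw [h0, map_zero] at hT
    exact zero_ne_one hT
  intro P
  rw [aeval_inv_eq h0, map_mul, map_pow, map_inv₀, hT, inv_one, one_pow, mul_one, h, gp_reverse]

theorem overG_inv : w.OverG T⁻¹ ↔ w.OverG T :=
  ⟨fun h => by simpa using h.inv, fun h => h.inv⟩

end overG

end

end P025H746
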