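import Vale.Agent.P025.R2.H746.Kap

/-!
# P025 G-STAB (helper746): reductions of Riemann-Roch spaces
-/

set_option linter.unusedSectionVars false
set_option linter.style.haveILetI false

open Polynomial IntermediateField

namespace P025H746

open P025H373 Vale.Agent.P019P

noncomputable section

theorem isIntegral_of_forall {A K : Type*} [CommRing A] [Field K] [Algebra A K] {x : K}
    (h : ∀ V : ValuationSubring K, (∀ a : A, algebraMap A K a ∈ V) → x ∈ V) :
    IsIntegral A x := by
  by_contra hx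
  have : IsIntegrallyClosedIn (integralClosure A K).toSubring K :=
    inferInstanceAs (IsIntegrallyClosedIn (integralClosure A K) K)
  obtain ⟨V, hV, hxV⟩ := Subring.exists_le_valuationSubring_of_isIntegrallyClosedIn
    (R := (integralClosure A K).toSubring) (x := x) hx
  exact hxV (h V fun a => hV (algebraMap_mem (integralClosure A K) a))

/-! ### Riemann-Roch spaces and integrality -/

section LLint

variable {k F : Type*} [Field k] [Field F] [Algebra k F] [CFF k F] {x y : F}

theorem isIntegral_of_mem_LL {n : ℕ} (hy : y ∈ LL k (n • pol k x)) :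
    IsIntegral (Algebra.adjoin k {x}) y := by
  refine isIntegral_of_forall fun V hV => ?_
  by_cases hne : V = ⊤
  · rw [hne]; exact ValuationSubring.mem_top y
  let P : Plk k F := ⟨V, fun a => hV (algebraMap k _ a), hne⟩
  have hx : x ∈ P.1 := hV ⟨x, Algebra.self_mem_adjoin_singleton k x⟩
  change y ∈ P.1
  rw [mem_iff_ord] at hx ⊢
  have h0 : (0 : ℤ) ≤ ord P x := by
    rcases hx with h | h
    · rw [h, ord_zero]
    · exact h
  rcases hy with h | h
  · exact Or.inl h
  · right
    have := h P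
    rw [Finsupp.smul_apply, pol_apply, max_eq_left (by omega)] at this
    simpa using this

theorem isIntegral_of_mem_LL' (hx0 : x ≠ 0) {n : ℕ} (hy : y ∈ LL k (n • pol k x)) :
    IsIntegral (Algebra.adjoin k {x⁻¹}) (y * x⁻¹ ^ n) := by
  refine isIntegral_of_forall fun V hV => ?_
  by_cases hne : V = ⊤
  · rw [hne]; exact ValuationSubring.mem_top _
  let P : Plk k F := ⟨V, fun a => hV (algebraMap k _ a), hne⟩
  have hx : x⁻¹ ∈ P.1 := hV ⟨x⁻¹, Algebra.self_mem_adjoin_singleton k x⁻¹⟩
  change y * x⁻¹ ^ n ∈ P.1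
  rw [mem_iff_ord] at hx ⊢
  have h0 : ord P x ≤ 0 := by
    rcases hx with h | h
    · exact absurd (inv_eq_zero.1 h) hx0
    · rw [ord_inv] at h
      omega
  rcases hy with h | h
  · left
    rw [h, zero_mul]
  · by_cases hy0 : y = 0
    · left
      rw [hy0, zero_mul]
    · right
      have := h P
      rw [Finsupp.smul_apply, pol_apply, max_eq_right (by omega)] at this
      rw [ord_mul P hy0 (pow_ne_zero _ (inv_ne_zero hx0)), ord_pow, ord_inv]
      simp only [smul_neg, neg_neg, nsmul_eq_mul] at this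
      linarith

end LLint

/-! ### Reduction of integral equations -/

section red

variable {C K : Type*} [NontriviallyNormedField C] [IsUltrametricDist C] [Field K] [Algebra C K]
  {T : K} {w : NV C K}

/-- coefficientwise reduction of a polynomial over `C[X]` -/
def pred2 (p : C[X][X]) : (kC C)[X][X] := ∑ i ∈ p.support, monomial i (pred (p.coeff i))

@[simp] theorem pred_zero : pred (0 : C[X]) = 0 := by
  ext i
  simp

@[simp] theorem pred_one : pred (1 : C[X]) = 1 := by
  ext i
  rw [coeff_pred, coeff_one, coeff_one]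
  split_ifs <;> simp

@[simp] theorem coeff_pred2 (p : C[X][X]) (i : ℕ) : (pred2 p).coeff i = pred (p.coeff i) := by
  rw [pred2, finsetSum_coeff]
  simp only [coeff_monomial]
  rw [Finset.sum_ite_eq' p.support i]
  split_ifs with h
  · rfl
  · rw [notMem_support_iff.1 h, pred_zero]

theorem pred2_monic {p : C[X][X]} (hp : p.Monic) : (pred2 p).Monic := by
  refine monic_of_natDegree_le_of_coeff_eq_one p.natDegree ?_ ?_
  · refine natDegree_le_iff_coeff_eq_zero.2 fun i hi => ?_
    rw [coeff_pred2, coeff_eq_zero_of_natDegree_lt hi, pred_zero]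
  · rw [coeff_pred2, hp.coeff_natDegree, pred_one]

theorem red_eval₂ (hT : w T ≤ 1) {x : K} (hx : w x ≤ 1) {p : C[X][X]}
    (hp : ∀ i, gp (p.coeff i) ≤ 1) :
    w.red (eval₂ (aeval T : C[X] →ₐ[C] K).toRingHom x p) =
      eval₂ (aeval (w.red T) : (kC C)[X] →ₐ[kC C] kap w).toRingHom (w.red x) (pred2 p) := by
  have h1 : (pred2 p).natDegree < p.natDegree + 1 := by
    refine Nat.lt_succ_of_le (natDegree_le_iff_coeff_eq_zero.2 fun i hi => ?_)
    rw [coeff_pred2, coeff_eq_zero_of_natDegree_lt hi, pred_zero]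
  rw [eval₂_eq_sum_range, eval₂_eq_sum_range' _ h1, NV.red_sum]
  · refine Finset.sum_congr rfl fun i _ => ?_
    rw [coeff_pred2]
    change w.red (aeval T (p.coeff i) * x ^ i) = aeval (w.red T) (pred (p.coeff i)) * w.red x ^ i
    rw [NV.red_mul (NV.aeval_le hT (hp i)) (NV.pow_le_one' hx i), NV.red_aeval hT (hp i),
      NV.red_pow hx]
  · intro i _
    exact NV.mul_le_one (NV.aeval_le hT (hp i)) (NV.pow_le_one' hx i)

/-- an element integral over `k[t]` lies in every valuation ring containing `k` and `t` -/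
theorem mem_of_eval₂ {k F : Type*} [Field k] [Field F] [Algebra k F] {t y : F}
    {p : k[X][X]} (hp : p.Monic) (h : eval₂ (aeval t : k[X] →ₐ[k] F).toRingHom y p = 0)
    {V : ValuationSubring F} (hk : ∀ a : k, algebraMap k F a ∈ V) (ht : t ∈ V) : y ∈ V := by
  have hmem : ∀ q : k[X], (aeval t : k[X] →ₐ[k] F).toRingHom q ∈ V.toSubring := by
    intro q
    change aeval t q ∈ V
    rw [aeval_eq_sum_range]
    refine sum_mem fun i _ => ?_
    rw [Algebra.smul_def]
    exact mul_mem (hk _) (pow_mem ht i)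
  let φ : k[X] →+* V := (aeval t : k[X] →ₐ[k] F).toRingHom.codRestrict V.toSubring hmem
  have h1 : IsIntegral V y := by
    refine ⟨p.map φ, hp.map φ, ?_⟩
    rw [eval₂_map]
    exact h
  obtain ⟨b, hb⟩ := (IsIntegrallyClosed.isIntegral_iff (R := V) (K := F)).1 h1
  rw [← hb]
  exact b.2

/-- **reduction of the Riemann-Roch spaces of multiples of the poles of `T`**, given integral
equations with coefficients of Gauss norm at most one -/
theorem red_mem_LL_of [IsAlgClosed C] [FiniteDimensional C⟮T⟯ K] [CFF C K]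
    [hcff : CFF (kC C) (kap w)] (hw : w.OverG T)
    (hmon : ∀ (S : K), (S = T ∨ S = T⁻¹) → ∀ x : K, IsIntegral (Algebra.adjoin C {S}) x →
      (∀ v : NV C K, v.OverG S → v x ≤ 1) → ∃ p : C[X][X], p.Monic ∧ (∀ i, gp (p.coeff i) ≤ 1) ∧
        eval₂ (aeval S : C[X] →ₐ[C] K).toRingHom x p = 0)
    {n : ℕ} {x : K} (hx : x ∈ LL C (n • pol C T)) (hle : ∀ v : NV C K, v.OverG T → v x ≤ 1) :
    w.red x ∈ LL (kC C) (n • pol (kC C) (w.red T)) := by
  have hT : w T = 1 := hw.apply_T
  have h0 : T ≠ 0 := by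
    intro h0
    rw [h0, map_zero] at hT
    exact zero_ne_one hT
  have hTinv : w T⁻¹ ≤ 1 := by rw [map_inv₀, hT, inv_one]
  by_cases hr : w.red x = 0
  · exact Or.inl hr
  right
  intro Q
  have hk : ∀ a, algebraMap (kC C) (kap w) a ∈ Q.1 := Q.2.1
  rw [Finsupp.smul_apply, pol_apply]
  rcases Q.1.mem_or_inv_mem (w.red T) with h | h
  · -- no pole
    obtain ⟨p, hp, hpc, hp0⟩ := hmon T (Or.inl rfl) x (isIntegral_of_mem_LL hx) hle
    have h1 := red_eval₂ hT.le (hle w hw) hpc
    rw [hp0, NV.red_zero] at h1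
    have h2 : w.red x ∈ Q.1 := mem_of_eval₂ (pred2_monic hp) h1.symm hk h
    rw [mem_iff_ord] at h h2
    have h3 : 0 ≤ ord Q (w.red x) := h2.resolve_left hr
    have h4 : 0 ≤ ord Q (w.red T) := by
      rcases h with h | h
      · rw [h, ord_zero]
      · exact h
    rw [max_eq_left (by omega)]
    simpa using h3
  · -- pole
    obtain ⟨p, hp, hpc, hp0⟩ := hmon T⁻¹ (Or.inr rfl) (x * T⁻¹ ^ n) (isIntegral_of_mem_LL' h0 hx)
      (fun v hv => by
        have hv' : v.OverG T := overG_inv.1 hv
        rw [map_mul, map_pow, map_inv₀, hv'.apply_T, inv_one, one_pow, mul_one]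
        exact hle v hv')
    have hxT : w (x * T⁻¹ ^ n) ≤ 1 := NV.mul_le_one (hle w hw) (NV.pow_le_one' hTinv n)
    have h1 := red_eval₂ hTinv hxT hpc
    rw [hp0, NV.red_zero] at h1
    have hrT : w.red T⁻¹ = (w.red T)⁻¹ := NV.red_inv hT
    have h2 : w.red (x * T⁻¹ ^ n) ∈ Q.1 :=
      mem_of_eval₂ (pred2_monic hp) h1.symm hk (by rw [hrT]; exact h)
    have hT0 : w.red T ≠ 0 := NV.red_ne_zero hT
    rw [NV.red_mul (hle w hw) (NV.pow_le_one' hTinv n), NV.red_pow hTinv, hrT, mem_iff_ord] at h2
    have h3 := h2.resolve_left (mul_ne_zero hr (pow_ne_zero _ (inv_ne_zero hT0)))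
    rw [ord_mul Q hr (pow_ne_zero _ (inv_ne_zero hT0)), ord_pow, ord_inv] at h3
    rw [mem_iff_ord] at h
    have h4 := h.resolve_left (inv_ne_zero hT0)
    rw [ord_inv] at h4
    rw [max_eq_right (by omega)]
    simp only [smul_neg, neg_neg, nsmul_eq_mul]
    linarith

end red

end

end P025H746
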