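import Vale.Agent.P025.R2.H746.Kap

/-!
# P025 G-STAB (helper746): extensions of absolute values in a finite extension `W / K`
-/

set_option linter.unusedSectionVars false
set_option linter.style.haveILetI false

open Polynomial IntermediateField

namespace P025H746

open P025H373 Vale.Agent.P019P

noncomputable section

/-- change of the ambient field: `k(x)` in `F` and in `L` -/
theorem finrank_adjoin_map {k F L : Type*} [Field k] [Field F] [Field L] [Algebra k F]
    [Algebra k L] [Algebra F L] [IsScalarTower k F L] (x : F) :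
    Module.finrank k⟮x⟯ L = Module.finrank k⟮algebraMap F L x⟯ L := by
  have h : k⟮x⟯.map (IsScalarTower.toAlgHom k F L) = k⟮algebraMap F L x⟯ := by
    rw [adjoin_map, Set.image_singleton]
    rfl
  refine Algebra.finrank_eq_of_equiv_equiv
    ((k⟮x⟯.equivMap (IsScalarTower.toAlgHom k F L)).trans (equivOfEq h)).toRingEquiv
    (RingEquiv.refl L) ?_
  ext y
  rfl

section ext

variable {C K W : Type*} [NontriviallyNormedField C] [IsUltrametricDist C] [Field K] [Algebra C K]
  [Field W] [Algebra C W] [Algebra K W] [IsScalarTower C K W]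

/-- `v` extends `w` -/
class NVExt (w : NV C K) (v : NV C W) : Prop where
  out : ∀ x : K, v (algebraMap K W x) = w x

variable (K) in
/-- restriction to a subfield -/
def NV.comap (v : NV C W) : NV C K where
  av := v.av.comp (algebraMap K W).injective
  na x y := by
    change v (algebraMap K W (x + y)) ≤ max (v (algebraMap K W x)) (v (algebraMap K W y))
    rw [map_add]
    exact v.na _ _
  ext' c := by
    change v (algebraMap K W (algebraMap C K c)) = ‖c‖
    rw [← IsScalarTower.algebraMap_apply, v.ext']

theorem NV.comap_apply (v : NV C W) (x : K) : v.comap K x = v (algebraMap K W x) := rfl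

instance (v : NV C W) : NVExt (v.comap K) v := ⟨fun _ => rfl⟩

theorem nvExt_iff {w : NV C K} {v : NV C W} : NVExt w v ↔ v.comap K = w := by
  constructor
  · intro h
    refine NV.ext (AbsoluteValue.ext fun x => ?_)
    exact h.out x
  · rintro rfl
    infer_instance

variable {w : NV C K} {v : NV C W}

/-- `w.ring → v.ring` -/
def ringMap (w : NV C K) (v : NV C W) [h : NVExt w v] : w.ring →+* v.ring where
  toFun x := ⟨algebraMap K W x, by
    rw [NV.mem_ring, h.out]
    exact x.2⟩
  map_one' := by ext; simp
  map_mul' _ _ := by ext; simp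
  map_zero' := by ext; simp
  map_add' _ _ := by ext; simp

instance [h : NVExt w v] : IsLocalHom (ringMap w v) := by
  refine ⟨fun a ha => ?_⟩
  rw [isUnit_ring_iff] at ha ⊢
  rw [← h.out]
  exact ha

instance instAlgebraKap [NVExt w v] : Algebra (kap w) (kap v) :=
  (IsLocalRing.ResidueField.map (ringMap w v)).toAlgebra

theorem red_algebraMap' [h : NVExt w v] {x : K} (hx : w x ≤ 1) :
    v.red (algebraMap K W x) = algebraMap (kap w) (kap v) (w.red x) := by
  rw [NV.red_of hx, NV.red_of (by rwa [h.out])]
  exact (IsLocalRing.ResidueField.map_residue (ringMap w v) ⟨x, hx⟩).symm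

instance [NVExt w v] : IsScalarTower (kC C) (kap w) (kap v) := by
  refine IsScalarTower.of_algebraMap_eq fun a => ?_
  obtain ⟨c, hc, rfl⟩ := cred_surj a
  rw [← NV.red_algebraMap hc, ← NV.red_algebraMap hc, ← red_algebraMap' (by rwa [w.ext']),
    ← IsScalarTower.algebraMap_apply C K W]

theorem NVExt.overG [h : NVExt w v] {T : K} : v.OverG (algebraMap K W T) ↔ w.OverG T := by
  constructor
  · intro hv P
    rw [← hv P, aeval_algebraMap_apply, h.out]
  · intro hw P
    rw [← hw P, aeval_algebraMap_apply, h.out]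

theorem NV.OverG.comap {T : K} (hv : v.OverG (algebraMap K W T)) : (v.comap K).OverG T :=
  NVExt.overG.1 hv

/-- multiplicativity of the residue degree -/
theorem finrank_mul_resdeg [h : NVExt w v] {T : K} (hT : w T ≤ 1) :
    Module.finrank (kC C)⟮w.red T⟯ (kap w) * Module.finrank (kap w) (kap v) =
      Module.finrank (kC C)⟮v.red (algebraMap K W T)⟯ (kap v) := by
  rw [Module.finrank_mul_finrank, finrank_adjoin_map, red_algebraMap' hT]

/-! ### The local inequality -/

/-- independent families of residues at different extensions of `w` can be combined -/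
theorem sum_card_le_local [FiniteDimensional K W] (w : NV C K)
    (hval : ∀ x : K, ∃ c : C, ‖c‖ = w x) {ι : Type*} [Fintype ι]
    (v : ι → NV C W) (hinj : Function.Injective v) [hv : ∀ i, NVExt w (v i)] (n : ι → ℕ)
    (y : ∀ i, Fin (n i) → kap (v i)) (hy : ∀ i, LinearIndependent (kap w) (y i)) :
    ∑ i, n i ≤ Module.finrank K W := by
  classical
  choose x hx1 hx2 using fun i (j : Fin (n i)) => NV.red_surj (y i j)
  have happ : ∀ i (j : Fin (n i)), ∃ z : W, (v i) (z - x i j) < 1 ∧ ∀ l, l ≠ i → v l z < 1 :=
    fun i j => P025H458.exists_approx (fun i => (v i).av) (fun i => (v i).na) (fun i => (v i).ext')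
      (fun i j hij => hinj (NV.ext hij)) i (x i j) zero_lt_one
  choose z hz hz' using happ
  have hzle : ∀ i j, v i (z i j) ≤ 1 := by
    intro i j
    have : z i j = (z i j - x i j) + x i j := by ring
    rw [this]
    exact NV.add_le (hz i j).le (hx1 i j)
  have hzred : ∀ i j, (v i).red (z i j) = y i j := by
    intro i j
    have h1 := NV.red_sub (hzle i j) (hx1 i j)
    rw [NV.red_of_lt (hz i j), hx2] at h1
    exact (sub_eq_zero.1 h1.symm)
  have hli : LinearIndependent K (fun p : (Σ i, Fin (n i)) => z p.1 p.2) := by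
    rw [Fintype.linearIndependent_iff]
    intro a ha
    by_contra hcon
    push Not at hcon
    obtain ⟨p₁, hp₁⟩ := hcon
    obtain ⟨p₀, -, hp₀⟩ := Finset.exists_max_image Finset.univ (fun p => w (a p))
      ⟨p₁, Finset.mem_univ _⟩
    obtain ⟨c, hc⟩ := hval (a p₀)
    have hpos : 0 < w (a p₀) :=
      lt_of_lt_of_le (w.av.pos hp₁) (hp₀ p₁ (Finset.mem_univ _))
    have hc0 : c ≠ 0 := by
      rintro rfl
      rw [norm_zero] at hc
      exact hpos.ne hc
    have hcK : algebraMap C K c ≠ 0 := by
      rw [Ne, map_eq_zero]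
      exact hc0
    -- scale
    set b : (Σ i, Fin (n i)) → K := fun p => a p / algebraMap C K c with hb
    have hb1 : ∀ p, w (b p) ≤ 1 := by
      intro p
      rw [hb]
      simp only [map_div₀]
      rw [w.ext', hc]
      exact div_le_one_of_le₀ (hp₀ p (Finset.mem_univ _)) hpos.le
    have hb0 : w (b p₀) = 1 := by
      rw [hb]
      simp only [map_div₀]
      rw [w.ext', hc, div_self hpos.ne']
    have hsum : ∑ p : (Σ i, Fin (n i)), algebraMap K W (b p) * z p.1 p.2 = 0 := by
      have h1 : ∀ p : (Σ i, Fin (n i)), algebraMap K W (b p) * z p.1 p.2 =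
          algebraMap K W (algebraMap C K c)⁻¹ * (a p • z p.1 p.2) := by
        intro p
        rw [Algebra.smul_def, ← mul_assoc, ← map_mul, hb]
        congr 2
        rw [mul_comm]
        exact div_eq_mul_inv _ _
      rw [Finset.sum_congr rfl fun p _ => h1 p, ← Finset.mul_sum, ha, mul_zero]
    rw [← Finset.univ_sigma_univ, Finset.sum_sigma] at hsum
    have hbW : ∀ i p, v i (algebraMap K W (b p)) ≤ 1 := fun i p => by
      rw [(hv i).out]
      exact hb1 p
    obtain ⟨i₀, j₀⟩ := p₀
    have hle : ∀ i (j : Fin (n i)), v i₀ (algebraMap K W (b ⟨i, j⟩) * z i j) ≤ 1 := by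
      intro i j
      refine NV.mul_le_one (hbW _ _) ?_
      by_cases hi : i₀ = i
      · subst hi
        exact hzle _ j
      · exact (hz' i j i₀ hi).le
    have hred := congrArg (v i₀).red hsum
    rw [NV.red_zero, NV.red_sum fun i _ => NV.sum_le zero_le_one fun j _ => hle i j,
      Finset.sum_eq_single i₀] at hred
    · rw [NV.red_sum fun j _ => hle i₀ j] at hred
      have h2 := Fintype.linearIndependent_iff.1 (hy i₀) (fun j => w.red (b ⟨i₀, j⟩)) (by
        rw [← hred]
        refine Finset.sum_congr rfl fun j _ => ?_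
        rw [NV.red_mul (hbW _ _) (hzle i₀ j), hzred, red_algebraMap' (hb1 _), Algebra.smul_def]) j₀
      exact NV.red_ne_zero hb0 h2
    · intro i _ hi
      rw [NV.red_sum fun j _ => hle i j]
      refine Finset.sum_eq_zero fun j _ => ?_
      rw [NV.red_mul (hbW _ _) (hz' i j i₀ hi.symm).le, NV.red_of_lt (hz' i j i₀ hi.symm),
        mul_zero]
    · intro h
      exact absurd (Finset.mem_univ _) h
  simpa using hli.fintype_card_le_finrank

theorem finite_resdeg [FiniteDimensional K W] (w : NV C K)
    (hval : ∀ x : K, ∃ c : C, ‖c‖ = w x) (v : NV C W) [NVExt w v] :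
    FiniteDimensional (kap w) (kap v) := by
  have h1 : Module.rank (kap w) (kap v) ≤ (Module.finrank K W : ℕ) := by
    refine rank_le fun s hs => ?_
    have := sum_card_le_local w hval (fun _ : Unit => v) (fun _ _ _ => rfl)
      (fun _ => s.card) (fun _ => (fun i : s => (i : kap v)) ∘ s.equivFin.symm)
      (fun _ => hs.comp _ s.equivFin.symm.injective)
    simpa using this
  exact Module.rank_lt_aleph0_iff.1 (h1.trans_lt (Cardinal.natCast_lt_aleph0))

/-- **`∑_{v | w} [κ_v : κ_w] ≤ [W : K]`** -/
theorem sum_resdeg_le [FiniteDimensional K W] (w : NV C K)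
    (hval : ∀ x : K, ∃ c : C, ‖c‖ = w x) {ι : Type*} [Fintype ι]
    (v : ι → NV C W) (hinj : Function.Injective v) [∀ i, NVExt w (v i)] :
    ∑ i, Module.finrank (kap w) (kap (v i)) ≤ Module.finrank K W := by
  have := fun i => finite_resdeg w hval (v i)
  exact sum_card_le_local w hval v hinj (fun i => Module.finrank (kap w) (kap (v i)))
    (fun i => Module.finBasis _ _) (fun i => (Module.finBasis _ _).linearIndependent)

/-- an extension of `w` in the given family exists if and only if ... : the set of extensions is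
finite -/
theorem finite_ext [FiniteDimensional K W] (w : NV C K) (hval : ∀ x : K, ∃ c : C, ‖c‖ = w x) :
    Finite {v : NV C W // NVExt w v} := by
  by_contra hinf
  rw [not_finite_iff_infinite] at hinf
  let e : Fin (Module.finrank K W + 1) → {v : NV C W // NVExt w v} :=
    fun i => Infinite.natEmbedding _ (i : ℕ)
  have he : Function.Injective e := fun i j hij =>
    Fin.ext ((Infinite.natEmbedding _).injective hij)
  have : ∀ i, NVExt w (e i).1 := fun i => (e i).2
  have h1 := sum_resdeg_le w hval (fun i => (e i).1) (fun i j hij => he (Subtype.ext hij))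
  have h2 : ∑ i : Fin (Module.finrank K W + 1), 1 ≤
      ∑ i, Module.finrank (kap w) (kap (e i).1) := by
    refine Finset.sum_le_sum fun i _ => ?_
    have := finite_resdeg w hval (e i).1
    exact Module.finrank_pos
  simp at h2
  omega

instance (w : NV C K) (v : {v : NV C W // NVExt w v}) : NVExt w v.1 := v.2

theorem finite_adjoin_map [FiniteDimensional K W] {T : K} [FiniteDimensional C⟮T⟯ K] :
    FiniteDimensional C⟮algebraMap K W T⟯ W := by
  refine FiniteDimensional.of_finrank_pos ?_
  rw [← finrank_adjoin_map, ← Module.finrank_mul_finrank C⟮T⟯ K W]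
  exact Nat.mul_pos Module.finrank_pos Module.finrank_pos

/-- **`∑_{v | w} [κ_v : κ_w] = [W : K]`**, from the global formulas for `K` and `W` -/
theorem sum_resdeg_eq_of {T : K} [FiniteDimensional C⟮T⟯ K] [FiniteDimensional K W]
    [FiniteDimensional C⟮algebraMap K W T⟯ W]
    (hval : ∀ w : NV C K, w.OverG T → ∀ x : K, ∃ c : C, ‖c‖ = w x)
    (hsK : ∑ w : {w : NV C K // w.OverG T}, Module.finrank (kC C)⟮w.1.red T⟯ (kap w.1) =
      Module.finrank C⟮T⟯ K)
    (hsW : ∑ v : {v : NV C W // v.OverG (algebraMap K W T)},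
      Module.finrank (kC C)⟮v.1.red (algebraMap K W T)⟯ (kap v.1) =
      Module.finrank C⟮algebraMap K W T⟯ W)
    (w : NV C K) (hw : w.OverG T) [Fintype {v : NV C W // NVExt w v}] :
    ∑ v : {v : NV C W // NVExt w v}, Module.finrank (kap w) (kap v.1) = Module.finrank K W := by
  classical
  have hfin : ∀ w : {w : NV C K // w.OverG T}, Finite {v : NV C W // NVExt w.1 v} :=
    fun w => finite_ext w.1 (hval w.1 w.2)
  letI : ∀ w : {w : NV C K // w.OverG T}, Fintype {v : NV C W // NVExt w.1 v} :=
    fun w => Fintype.ofFinite _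
  let e : {v : NV C W // v.OverG (algebraMap K W T)} ≃
      (Σ w : {w : NV C K // w.OverG T}, {v : NV C W // NVExt w.1 v}) :=
    { toFun := fun v => ⟨⟨v.1.comap K, v.2.comap⟩, ⟨v.1, inferInstance⟩⟩
      invFun := fun p => ⟨p.2.1, NVExt.overG.2 p.1.2⟩
      left_inv := fun v => rfl
      right_inv := by
        rintro ⟨⟨w, hw⟩, ⟨v, hv⟩⟩
        obtain rfl := nvExt_iff.1 hv
        rfl }
  have h1 : ∑ v : {v : NV C W // v.OverG (algebraMap K W T)},
      Module.finrank (kC C)⟮v.1.red (algebraMap K W T)⟯ (kap v.1) =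
      ∑ w : {w : NV C K // w.OverG T}, Module.finrank (kC C)⟮w.1.red T⟯ (kap w.1) *
        ∑ v : {v : NV C W // NVExt w.1 v}, Module.finrank (kap w.1) (kap v.1) := by
    refine (Fintype.sum_equiv e _ (fun p => Module.finrank (kC C)⟮p.2.1.red (algebraMap K W T)⟯
      (kap p.2.1)) (fun v => rfl)).trans ?_
    rw [Fintype.sum_sigma]
    refine Finset.sum_congr rfl fun w _ => ?_
    rw [Finset.mul_sum]
    refine Finset.sum_congr rfl fun v _ => ?_
    rw [finrank_mul_resdeg w.2.apply_T.le]
  have h2 : ∑ w : {w : NV C K // w.OverG T}, Module.finrank (kC C)⟮w.1.red T⟯ (kap w.1) *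
        ∑ v : {v : NV C W // NVExt w.1 v}, Module.finrank (kap w.1) (kap v.1) =
      ∑ w : {w : NV C K // w.OverG T}, Module.finrank (kC C)⟮w.1.red T⟯ (kap w.1) *
        Module.finrank K W := by
    rw [← h1, hsW, ← Finset.sum_mul, hsK, Module.finrank_mul_finrank]
    exact (finrank_adjoin_map T).symm
  have h3 := (Finset.sum_eq_sum_iff_of_le (fun w _ => Nat.mul_le_mul_left _
    (sum_resdeg_le w.1 (hval w.1 w.2) (fun v : {v : NV C W // NVExt w.1 v} => v.1)
      Subtype.val_injective))).1 h2 ⟨w, hw⟩ (Finset.mem_univ _)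
  have hpos : 0 < Module.finrank (kC C)⟮w.red T⟯ (kap w) := by
    have := hw.finite
    exact Module.finrank_pos
  have h4 := Nat.eq_of_mul_eq_mul_left hpos h3
  rw [← h4]
  exact Finset.sum_congr (by ext; simp) fun _ _ => rfl

/-! ### Galois extensions of prime degree -/

/-- twist by an automorphism -/
def NV.twist (v : NV C W) (σ : W ≃ₐ[K] W) : NV C W where
  av := v.av.comp (f := (σ : W →+* W)) σ.injective
  na x y := by
    change v (σ (x + y)) ≤ max (v (σ x)) (v (σ y))
    rw [map_add]
    exact v.na _ _
  ext' c := by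
    change v (σ (algebraMap C W c)) = ‖c‖
    rw [IsScalarTower.algebraMap_apply C K W, σ.commutes, ← IsScalarTower.algebraMap_apply,
      v.ext']

theorem NV.twist_apply (v : NV C W) (σ : W ≃ₐ[K] W) (x : W) : v.twist σ x = v (σ x) := rfl

instance [h : NVExt w v] (σ : W ≃ₐ[K] W) : NVExt w (v.twist σ) :=
  ⟨fun x => by rw [NV.twist_apply, σ.commutes, h.out]⟩

theorem NV.twist_twist (v : NV C W) (σ τ : W ≃ₐ[K] W) :
    (v.twist σ).twist τ = v.twist (σ * τ) := rfl

theorem NV.twist_one (v : NV C W) : v.twist (1 : W ≃ₐ[K] W) = v := rfl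

theorem NV.congr {v v' : NV C W} (h : v = v') (x : W) : v x = v' x := by rw [h]

/-- `W / K` Galois of prime degree: the extension of `w` is unique or `K` is dense for each
extension of `w` -/
theorem unique_or_dense [FiniteDimensional K W] [IsGalois K W]
    (hp : (Module.finrank K W).Prime) (w : NV C K) (v : NV C W) [hv : NVExt w v] :
    (∀ v' : NV C W, NVExt w v' → v' = v) ∨
      (∀ (x : W) (ε : ℝ), 0 < ε → ∃ y : K, v (x - algebraMap K W y) < ε) := by
  classical
  have hcard : Nat.card (W ≃ₐ[K] W) = Module.finrank K W := IsGalois.card_aut_eq_finrank K W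
  by_cases hinj : Function.Injective fun σ : W ≃ₐ[K] W => v.twist σ
  · right
    intro x ε hε
    obtain ⟨y, hy1, hy2⟩ := P025H458.exists_approx (fun σ : W ≃ₐ[K] W => (v.twist σ).av)
      (fun σ => (v.twist σ).na) (fun σ => (v.twist σ).ext') (fun σ τ h => hinj (NV.ext h)) 1 x hε
    refine ⟨Algebra.trace K W y, ?_⟩
    rw [trace_eq_sum_automorphisms, ← Finset.add_sum_erase _ _ (Finset.mem_univ (1 : W ≃ₐ[K] W)),
      ← sub_sub]
    refine NV.sub_lt ?_ (NV.sum_lt hε fun σ hσ => hy2 σ (Finset.ne_of_mem_erase hσ))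
    have h1 : v (y - x) < ε := hy1
    rw [← NV.map_neg', neg_sub]
    exact h1
  · left
    intro v' hv'
    -- all twists of `v` are equal to `v`
    let H : Subgroup (W ≃ₐ[K] W) :=
      { carrier := {σ | v.twist σ = v}
        mul_mem' := by
          intro σ τ hσ hτ
          change v.twist (σ * τ) = v
          rw [← NV.twist_twist, hσ, hτ]
        one_mem' := rfl
        inv_mem' := by
          intro σ hσ
          change v.twist σ⁻¹ = v
          have hσ' : v.twist σ = v := hσ
          conv_lhs => rw [← hσ']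
          rw [NV.twist_twist, mul_inv_cancel, NV.twist_one] }
    have hH : H = ⊤ := by
      have : Fact (Nat.card (W ≃ₐ[K] W)).Prime := ⟨hcard ▸ hp⟩
      rcases H.eq_bot_or_eq_top_of_prime_card with h | h
      · exfalso
        apply hinj
        intro σ τ hστ
        have hστ' : v.twist σ = v.twist τ := hστ
        have h1 : σ * τ⁻¹ ∈ H := by
          change v.twist (σ * τ⁻¹) = v
          rw [← NV.twist_twist, hστ', NV.twist_twist, mul_inv_cancel, NV.twist_one]
        rw [h, Subgroup.mem_bot] at h1
        exact mul_inv_eq_one.1 h1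
      · exact h
    have hall : ∀ σ : W ≃ₐ[K] W, v.twist σ = v := fun σ => by
      have : σ ∈ H := hH ▸ Subgroup.mem_top σ
      exact this
    by_contra hne
    have hne' : ∀ σ : W ≃ₐ[K] W, v'.twist σ ≠ v := by
      intro σ h
      apply hne
      have h1 : (v'.twist σ).twist σ⁻¹ = v.twist σ⁻¹ := by rw [h]
      rwa [NV.twist_twist, mul_inv_cancel, NV.twist_one, hall] at h1
    let S : Set (NV C W) := insert v (Set.range fun σ : W ≃ₐ[K] W => v'.twist σ)
    have hS : Finite S := (Set.finite_range _).insert v
    obtain ⟨e, -, he1, he2⟩ := P025H458.exists_idem (fun u : S => u.1.av) (fun u => u.1.na)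
      (fun u => u.1.ext') (fun u u' h => Subtype.ext (NV.ext h)) ⟨v, Set.mem_insert _ _⟩
    have h1 : v (algebraMap K W (Algebra.norm K e)) = 1 := by
      rw [Algebra.norm_eq_prod_automorphisms, map_prod]
      refine Finset.prod_eq_one fun σ _ => ?_
      rw [← NV.twist_apply, hall]
      exact he1
    have h2 : v' (algebraMap K W (Algebra.norm K e)) < 1 := by
      rw [Algebra.norm_eq_prod_automorphisms, map_prod,
        ← Finset.mul_prod_erase _ _ (Finset.mem_univ (1 : W ≃ₐ[K] W))]
      have h3 : ∀ σ : W ≃ₐ[K] W, v' (σ e) < 1 := fun σ =>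
        he2 ⟨v'.twist σ, Set.mem_insert_of_mem _ ⟨σ, rfl⟩⟩
          (fun h => hne' σ (congrArg Subtype.val h))
      refine mul_lt_one_of_nonneg_of_lt_one_left (v'.av.nonneg _) (h3 1) ?_
      exact Finset.prod_le_one (fun σ _ => v'.av.nonneg _) (fun σ _ => (h3 σ).le)
    rw [hv'.out, ← hv.out, h1] at h2
    exact lt_irrefl _ h2

/-- `W / K` Galois of prime degree: either the extension of `w` is unique, of residue degree
`[W : K]`, or `K` is dense for each extension of `w` -/
theorem inert_or_dense [FiniteDimensional K W] [IsGalois K W]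
    (hp : (Module.finrank K W).Prime) (w : NV C K) (v : NV C W) [hv : NVExt w v]
    (hsum : ∀ [Fintype {v : NV C W // NVExt w v}],
      ∑ v : {v : NV C W // NVExt w v}, Module.finrank (kap w) (kap v.1) = Module.finrank K W) :
    ((∀ v' : NV C W, NVExt w v' → v' = v) ∧
      Module.finrank (kap w) (kap v) = Module.finrank K W) ∨
      (∀ (x : W) (ε : ℝ), 0 < ε → ∃ y : K, v (x - algebraMap K W y) < ε) := by
  rcases unique_or_dense hp w v with h | h
  · left
    refine ⟨h, ?_⟩
    letI : Unique {v : NV C W // NVExt w v} := ⟨⟨⟨v, hv⟩⟩, fun a => Subtype.ext (h a.1 a.2)⟩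
    letI : Fintype {v : NV C W // NVExt w v} := Fintype.ofFinite _
    rw [← hsum, Fintype.sum_unique]
    rfl
  · exact Or.inr h

end ext

end

end P025H746
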